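import Mathlib

open Filter Topology

namespace Vale.Agent.Results.P124.FlatOrCompact

variable {X Y : Type*} [NormedAddCommGroup X] [NormedSpace ℝ X] [CompleteSpace X]
  [NormedAddCommGroup Y] [NormedSpace ℝ Y] [CompleteSpace Y]

omit [CompleteSpace X] [CompleteSpace Y] in
/-- A bounded linear map bounded below on a complete space has closed range. -/
private lemma closed_range_of_below [CompleteSpace X] (T : X →L[ℝ] Y) {b : ℝ} (hb : 0 < b)
    (hT : ∀ h, b * ‖h‖ ≤ ‖T h‖) : IsClosed (LinearMap.range T.toLinearMap : Set Y) := by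
  have hanti : AntilipschitzWith (⟨b⁻¹, (inv_pos.mpr hb).le⟩ : NNReal) T := by
    refine AntilipschitzWith.of_le_mul_dist ?_
    intro a a'
    rw [dist_eq_norm, dist_eq_norm, ← map_sub]
    have := hT (a - a')
    show ‖a - a'‖ ≤ b⁻¹ * ‖T (a - a')‖
    rw [inv_mul_eq_div, le_div_iff₀ hb]; linarith
  have hcl := hanti.isClosed_range T.uniformContinuous
  have e : (LinearMap.range T.toLinearMap : Set Y) = Set.range T := by
    ext y; simp
  rw [e]; exact hcl

/-- Packaging: bounded below and surjective gives a linear isomorphism. -/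
private lemma iso_of_below_surj (T : X →L[ℝ] Y) {b : ℝ} (hb : 0 < b)
    (hT : ∀ h, b * ‖h‖ ≤ ‖T h‖) (hs : LinearMap.range T.toLinearMap = ⊤) :
    ∃ L : X ≃L[ℝ] Y, ∀ h, L h = T h := by
  have hker : LinearMap.ker T.toLinearMap = ⊥ := by
    refine LinearMap.ker_eq_bot'.mpr ?_
    intro m hm
    have h1 := hT m
    have hm' : T m = 0 := hm
    rw [hm', norm_zero] at h1
    have h2 : ‖m‖ ≤ 0 := by
      by_contra hcon
      push Not at hcon
      have := mul_pos hb hcon
      linarith
    exact norm_le_zero_iff.mp h2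
  exact ⟨ContinuousLinearEquiv.ofBijective T hker hs, fun h => rfl⟩

/-- **Bi-Lipschitz bijections that are flat on one ball, or Gateaux differentiable at a point with
norm-compact blow-ups of the inverse along a spanning set of rays, force a linear isomorphism.**
`f : X → Y` is a surjection of real Banach spaces with `c‖x-x'‖ ≤ ‖f x - f x'‖`, `c > 0`, and
`T : X → Y` is a bounded linear map.

(A) If on one ball `f` is within `δ r` of the affine map with linear part `T`, for some `δ < c`:
`‖f (p + r h) - f p - r T h‖ ≤ δ r` for `‖h‖ ≤ 1`, then `T` is a linear isomorphism of `X` onto `Y`.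
No continuity of `f` from above is used.

(B) Suppose also `‖f x - f x'‖ ≤ C‖x-x'‖`, `T` is the derivative of `f` at `x₀` in each direction
along a nontrivial filter `l` on `ℝ` with `t ≠ 0` eventually, and `D ⊂ Y` has dense linear span. If
for each `k ∈ D` the rescaled preimages of the ray `f x₀ + t k` have a cluster point `h*` in norm
along `l` (`∀ η > 0, ∃ᶠ t in l, ∃ x, f x = f x₀ + t k ∧ ‖t⁻¹ (x - x₀) - h*‖ < η`), then `T` is a
linear isomorphism of `X` onto `Y`. -/
theorem result (f : X → Y) (hsurj : Function.Surjective f) {c : ℝ} (hc : 0 < c)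
    (hlow : ∀ x x', c * ‖x - x'‖ ≤ ‖f x - f x'‖) (T : X →L[ℝ] Y) :
    ((∃ (p : X) (r δ : ℝ), 0 < r ∧ δ < c ∧
        ∀ h : X, ‖h‖ ≤ 1 → ‖f (p + r • h) - f p - r • T h‖ ≤ δ * r) →
      ∃ L : X ≃L[ℝ] Y, ∀ h, L h = T h) ∧
    (∀ (C : ℝ), (∀ x x', ‖f x - f x'‖ ≤ C * ‖x - x'‖) →
      ∀ (l : Filter ℝ) [l.NeBot], (∀ᶠ t in l, t ≠ 0) → ∀ (x₀ : X),
      (∀ h, Tendsto (fun t : ℝ => t⁻¹ • (f (x₀ + t • h) - f x₀)) l (𝓝 (T h))) →
      ∀ (D : Set Y), Dense (Submodule.span ℝ D : Set Y) →
      (∀ k ∈ D, ∃ hs : X, ∀ η : ℝ, 0 < η →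
        ∃ᶠ t in l, ∃ x, f x = f x₀ + t • k ∧ ‖t⁻¹ • (x - x₀) - hs‖ < η) →
      ∃ L : X ≃L[ℝ] Y, ∀ h, L h = T h) := by
  constructor
  · rintro ⟨p, r, δ, hr, hδ, hflat⟩
    -- bounded below
    have hbelow : ∀ h, (c - δ) * ‖h‖ ≤ ‖T h‖ := by
      intro h
      by_cases h0 : h = 0
      · simp [h0]
      have hn : 0 < ‖h‖ := norm_pos_iff.mpr h0
      set u : X := ‖h‖⁻¹ • h with hu
      have hun : ‖u‖ = 1 := by
        rw [hu, norm_smul, norm_inv, norm_norm]; field_simp
      have h1 := hflat u hun.le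
      have h2 := hlow (p + r • u) p
      have h3 : p + r • u - p = r • u := by abel
      rw [h3, norm_smul, hun, Real.norm_of_nonneg hr.le, mul_one] at h2
      have h4 : ‖f (p + r • u) - f p‖ ≤ ‖f (p + r • u) - f p - r • T u‖ + ‖r • T u‖ := by
        have := norm_add_le (f (p + r • u) - f p - r • T u) (r • T u)
        simpa using this
      rw [norm_smul, Real.norm_of_nonneg hr.le] at h4
      have h5 : r * (c - δ) ≤ r * ‖T u‖ := by nlinarith
      have h6 : c - δ ≤ ‖T u‖ := le_of_mul_le_mul_left h5 hr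
      have h7 : T u = ‖h‖⁻¹ • T h := by rw [hu, map_smul]
      rw [h7, norm_smul, norm_inv, norm_norm] at h6
      rw [inv_mul_eq_div, le_div_iff₀ hn] at h6
      exact h6
    have hb : 0 < c - δ := by linarith
    have hclosed := closed_range_of_below T hb hbelow
    -- surjective by Riesz
    refine iso_of_below_surj T hb hbelow ?_
    by_contra hne
    have hex : ∃ y : Y, y ∉ LinearMap.range T.toLinearMap := by
      by_contra hall
      push Not at hall
      exact hne (Submodule.eq_top_iff'.mpr hall)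
    set s : ℝ := (max δ 0 / c + 1) / 2 with hs
    have hmaxlt : max δ 0 / c < 1 := by
      rw [div_lt_one hc]; exact max_lt hδ hc
    have hs1 : s < 1 := by rw [hs]; linarith
    have hs2 : δ < c * s := by
      have h1 : δ / c < s := by
        have : δ / c ≤ max δ 0 / c := by
          apply div_le_div_of_nonneg_right (le_max_left _ _) hc.le
        rw [hs]; linarith
      rw [div_lt_iff₀ hc] at h1
      linarith
    obtain ⟨x₁, hx₁, hR⟩ := riesz_lemma hclosed hex hs1
    have hx₁0 : x₁ ≠ 0 := by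
      rintro rfl
      exact hx₁ (Submodule.zero_mem _)
    have hn1 : 0 < ‖x₁‖ := norm_pos_iff.mpr hx₁0
    -- the target point on the sphere of radius `c`
    set u : Y := (c / ‖x₁‖) • x₁ with hu
    have hun : ‖u‖ = c := by
      rw [hu, norm_smul, Real.norm_of_nonneg (div_pos hc hn1).le]; field_simp
    obtain ⟨x, hx⟩ := hsurj (f p + r • u)
    have hxp : ‖x - p‖ ≤ r := by
      have h1 := hlow x p
      rw [hx] at h1
      have h2 : f p + r • u - f p = r • u := by abel
      rw [h2, norm_smul, hun, Real.norm_of_nonneg hr.le] at h1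
      have : c * ‖x - p‖ ≤ c * r := by linarith
      exact le_of_mul_le_mul_left this hc
    set h : X := r⁻¹ • (x - p) with hh
    have hhn : ‖h‖ ≤ 1 := by
      rw [hh, norm_smul, norm_inv, Real.norm_of_nonneg hr.le, inv_mul_le_iff₀ hr, mul_one]
      exact hxp
    have hxeq : p + r • h = x := by
      rw [hh, smul_smul, mul_inv_cancel₀ hr.ne', one_smul]; abel
    have hfl := hflat h hhn
    rw [hxeq, hx] at hfl
    have h8 : f p + r • u - f p - r • T h = r • (u - T h) := by
      rw [smul_sub]; abel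
    rw [h8, norm_smul, Real.norm_of_nonneg hr.le] at hfl
    have h9 : ‖u - T h‖ ≤ δ := by
      have : r * ‖u - T h‖ ≤ r * δ := by linarith
      exact le_of_mul_le_mul_left this hr
    -- Riesz lower bound
    have hmem : (‖x₁‖ / c) • T h ∈ LinearMap.range T.toLinearMap :=
      Submodule.smul_mem _ _ ⟨h, rfl⟩
    have h10 := hR _ hmem
    have h11 : u - T h = (c / ‖x₁‖) • (x₁ - (‖x₁‖ / c) • T h) := by
      rw [smul_sub, smul_smul]
      have : c / ‖x₁‖ * (‖x₁‖ / c) = 1 := by field_simp
      rw [this, one_smul]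
    rw [h11, norm_smul, Real.norm_of_nonneg (div_pos hc hn1).le] at h9
    have h12 : c / ‖x₁‖ * (s * ‖x₁‖) ≤ c / ‖x₁‖ * ‖x₁ - (‖x₁‖ / c) • T h‖ :=
      mul_le_mul_of_nonneg_left h10 (div_pos hc hn1).le
    have h13 : c / ‖x₁‖ * (s * ‖x₁‖) = c * s := by field_simp
    rw [h13] at h12
    linarith
  · intro C hC l _ hl x₀ hT D hD hcl
    -- bounded below
    have hbelow : ∀ h, c * ‖h‖ ≤ ‖T h‖ := by
      intro h
      have hlim : Tendsto (fun t : ℝ => ‖t⁻¹ • (f (x₀ + t • h) - f x₀)‖) l (𝓝 ‖T h‖) :=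
        (hT h).norm
      refine ge_of_tendsto hlim ?_
      filter_upwards [hl] with t ht
      have ht' : 0 < ‖t‖ := norm_pos_iff.mpr ht
      have h2 := hlow (x₀ + t • h) x₀
      have h3 : x₀ + t • h - x₀ = t • h := by abel
      rw [h3, norm_smul] at h2
      rw [norm_smul, norm_inv]
      calc c * ‖h‖ = ‖t‖⁻¹ * (c * (‖t‖ * ‖h‖)) := by field_simp
        _ ≤ ‖t‖⁻¹ * ‖f (x₀ + t • h) - f x₀‖ := by gcongr
    have hclosed := closed_range_of_below T hc hbelow
    -- each `k ∈ D` is in the range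
    have hDmem : ∀ k ∈ D, k ∈ LinearMap.range T.toLinearMap := by
      intro k hk
      obtain ⟨hs, hhs⟩ := hcl k hk
      refine ⟨hs, ?_⟩
      show T hs = k
      have hzero : ∀ η : ℝ, 0 < η → ‖T hs - k‖ < (|C| + 1) * η + η := by
        intro η hη
        have hev : ∀ᶠ t in l, ‖t⁻¹ • (f (x₀ + t • hs) - f x₀) - T hs‖ < η := by
          have := (hT hs)
          rw [Metric.tendsto_nhds] at this
          simpa [dist_eq_norm] using this η hη
        obtain ⟨t, ⟨x, hx, hx2⟩, ht0, ht1⟩ :=
          ((hhs η hη).and_eventually (hl.and hev)).exists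
        have hn : 0 < ‖t‖ := norm_pos_iff.mpr ht0
        have h1 : t⁻¹ • (f (x₀ + t • hs) - f x₀) - k
            = t⁻¹ • (f (x₀ + t • hs) - f x) := by
          rw [hx]
          have : f (x₀ + t • hs) - (f x₀ + t • k) = (f (x₀ + t • hs) - f x₀) - t • k := by abel
          rw [this, smul_sub (t⁻¹) (f (x₀ + t • hs) - f x₀) (t • k), smul_smul,
            inv_mul_cancel₀ ht0, one_smul]
        have h2 : ‖t⁻¹ • (f (x₀ + t • hs) - f x)‖ ≤ |C| * ‖t⁻¹ • (x - x₀) - hs‖ := by
          rw [norm_smul, norm_inv]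
          have h3 := hC (x₀ + t • hs) x
          have h4 : x₀ + t • hs - x = -(t • (t⁻¹ • (x - x₀) - hs)) := by
            rw [smul_sub, smul_smul, mul_inv_cancel₀ ht0, one_smul]; abel
          rw [h4, norm_neg, norm_smul] at h3
          have h5 : C * (‖t‖ * ‖t⁻¹ • (x - x₀) - hs‖)
              ≤ |C| * (‖t‖ * ‖t⁻¹ • (x - x₀) - hs‖) :=
            mul_le_mul_of_nonneg_right (le_abs_self C) (by positivity)
          calc ‖t‖⁻¹ * ‖f (x₀ + t • hs) - f x‖
              ≤ ‖t‖⁻¹ * (|C| * (‖t‖ * ‖t⁻¹ • (x - x₀) - hs‖)) := by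
                gcongr
                exact h3.trans h5
            _ = |C| * ‖t⁻¹ • (x - x₀) - hs‖ := by field_simp
        have h6 : ‖T hs - k‖ ≤ ‖t⁻¹ • (f (x₀ + t • hs) - f x₀) - T hs‖
            + ‖t⁻¹ • (f (x₀ + t • hs) - f x₀) - k‖ := by
          have := norm_sub_le (T hs - t⁻¹ • (f (x₀ + t • hs) - f x₀))
            (k - t⁻¹ • (f (x₀ + t • hs) - f x₀))
          rw [norm_sub_rev (T hs) _, norm_sub_rev k _] at this
          have e : T hs - t⁻¹ • (f (x₀ + t • hs) - f x₀)
              - (k - t⁻¹ • (f (x₀ + t • hs) - f x₀)) = T hs - k := by abel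
          rwa [e] at this
        rw [h1] at h6
        have h7 : |C| * ‖t⁻¹ • (x - x₀) - hs‖ ≤ |C| * η :=
          mul_le_mul_of_nonneg_left hx2.le (abs_nonneg C)
        nlinarith [abs_nonneg C]
      have hle : ‖T hs - k‖ ≤ 0 := by
        refine le_of_forall_pos_le_add ?_
        intro ε hε
        have hpos : 0 < |C| + 2 := by positivity
        have := hzero (ε / (|C| + 2)) (div_pos hε hpos)
        have e : (|C| + 1) * (ε / (|C| + 2)) + ε / (|C| + 2) = ε := by field_simp; ring
        rw [e] at this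
        linarith
      exact sub_eq_zero.mp (norm_le_zero_iff.mp hle)
    -- so the range is everything
    refine iso_of_below_surj T hc hbelow ?_
    have hspan : (Submodule.span ℝ D) ≤ LinearMap.range T.toLinearMap :=
      Submodule.span_le.mpr hDmem
    refine Submodule.eq_top_iff'.mpr ?_
    intro y
    have hy : y ∈ closure (Submodule.span ℝ D : Set Y) := hD y
    have hy2 : y ∈ closure (LinearMap.range T.toLinearMap : Set Y) :=
      closure_mono hspan hy
    rw [hclosed.closure_eq] at hy2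
    exact hy2

end Vale.Agent.Results.P124.FlatOrCompact
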