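import Vale.Agent.Results.P124.BlowUpInverse
import Vale.Agent.Results.P124.FlatOrCompact

open Filter Topology

universe u v

/-- Necessary conditions on a Lipschitz isomorphism between spaces that are not linearly
isomorphic: the conjunction of the blow-up theorem for a bi-Lipschitz bijection and its inverse, and
of the flatness and compactness theorems for a surjection with a lower Lipschitz bound. -/
theorem Vale.Agent.Results.P124.A0Conj.result :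
    (∀ {X : Type u} {Y : Type v} [NormedAddCommGroup X] [NormedSpace ℝ X]
      [NormedAddCommGroup Y] [NormedSpace ℝ Y]
      (f : X ≃ Y) {c C : ℝ} (_ : 0 < c)
      (_ : ∀ x x', c * ‖x - x'‖ ≤ ‖f x - f x'‖) (_ : ∀ x x', ‖f x - f x'‖ ≤ C * ‖x - x'‖)
      (l : Filter ℝ) [l.NeBot] (_ : ∀ᶠ t in l, t ≠ 0) (x₀ : X)
      (T : X → Y) (_ : ∀ h, Tendsto (fun t : ℝ => t⁻¹ • (f (x₀ + t • h) - f x₀)) l (𝓝 (T h)))
      (S : Y → X)
      (_ : ∀ k, Tendsto (fun t : ℝ => t⁻¹ • (f.symm (f x₀ + t • k) - x₀)) l (𝓝 (S k))),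
      (∀ h, S (T h) = h) ∧ (∀ k, T (S k) = k) ∧
        (∀ h h', c * ‖h - h'‖ ≤ ‖T h - T h'‖ ∧ ‖T h - T h'‖ ≤ C * ‖h - h'‖) ∧
        ((∀ a b, T (a + b) = T a + T b) → ∃ L : X ≃L[ℝ] Y, ∀ h, L h = T h)) ∧
    (∀ {X : Type u} {Y : Type v} [NormedAddCommGroup X] [NormedSpace ℝ X] [CompleteSpace X]
      [NormedAddCommGroup Y] [NormedSpace ℝ Y] [CompleteSpace Y]
      (f : X → Y) (_ : Function.Surjective f) {c : ℝ} (_ : 0 < c)
      (_ : ∀ x x', c * ‖x - x'‖ ≤ ‖f x - f x'‖) (T : X →L[ℝ] Y),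
      ((∃ (p : X) (r δ : ℝ), 0 < r ∧ δ < c ∧
          ∀ h : X, ‖h‖ ≤ 1 → ‖f (p + r • h) - f p - r • T h‖ ≤ δ * r) →
        ∃ L : X ≃L[ℝ] Y, ∀ h, L h = T h) ∧
      (∀ (C : ℝ), (∀ x x', ‖f x - f x'‖ ≤ C * ‖x - x'‖) →
        ∀ (l : Filter ℝ) [l.NeBot], (∀ᶠ t in l, t ≠ 0) → ∀ (x₀ : X),
        (∀ h, Tendsto (fun t : ℝ => t⁻¹ • (f (x₀ + t • h) - f x₀)) l (𝓝 (T h))) →
        ∀ (D : Set Y), Dense (Submodule.span ℝ D : Set Y) →
        (∀ k ∈ D, ∃ hs : X, ∀ η : ℝ, 0 < η →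
          ∃ᶠ t in l, ∃ x, f x = f x₀ + t • k ∧ ‖t⁻¹ • (x - x₀) - hs‖ < η) →
        ∃ L : X ≃L[ℝ] Y, ∀ h, L h = T h)) := by
  refine ⟨?_, ?_⟩
  · intro X Y _ _ _ _ f c C hc hlow hup l _ hl x₀ T hT S hS
    exact Vale.Agent.Results.P124.BlowUpInverse.result f hc hlow hup l hl x₀ T hT S hS
  · intro X Y _ _ _ _ _ _ f hs c hc hlow T
    exact Vale.Agent.Results.P124.FlatOrCompact.result f hs hc hlow T
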