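import Mathlib

open Filter Topology

namespace Vale.Agent.Results.P124.BlowUpInverse

variable {X Y : Type*} [NormedAddCommGroup X] [NormedSpace ℝ X]
  [NormedAddCommGroup Y] [NormedSpace ℝ Y]

/-- The difference quotients of a Lipschitz map at two nearby base values. -/
private lemma quotient_sub_norm {V W : Type*} [NormedAddCommGroup V] [NormedSpace ℝ V]
    [NormedAddCommGroup W] [NormedSpace ℝ W] (F : V → W) {K : ℝ}
    (hF : ∀ a b, ‖F a - F b‖ ≤ K * ‖a - b‖) (p : V) (q : W) (a b : V) {t : ℝ} (ht : t ≠ 0) :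
    ‖t⁻¹ • (F (p + t • a) - q) - t⁻¹ • (F (p + t • b) - q)‖ ≤ K * ‖a - b‖ := by
  have h1 : t⁻¹ • (F (p + t • a) - q) - t⁻¹ • (F (p + t • b) - q)
      = t⁻¹ • (F (p + t • a) - F (p + t • b)) := by
    rw [← smul_sub]; congr 1; abel
  rw [h1, norm_smul, norm_inv]
  have h2 := hF (p + t • a) (p + t • b)
  have h3 : (p + t • a) - (p + t • b) = t • (a - b) := by
    rw [smul_sub]; abel
  rw [h3, norm_smul] at h2
  have ht' : 0 < ‖t‖ := norm_pos_iff.mpr ht
  calc ‖t‖⁻¹ * ‖F (p + t • a) - F (p + t • b)‖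
      ≤ ‖t‖⁻¹ * (K * (‖t‖ * ‖a - b‖)) := by gcongr
    _ = K * ‖a - b‖ := by field_simp

/-- Transfer of a blow-up through a Lipschitz inverse: if `G ∘ F = id` on the relevant points, `F`
has blow-up `A h` at `p` in direction `h`, and `G` is Lipschitz with a blow-up `B` at `F p`, then
`B (A h) = h`. -/
private lemma blowup_comp {V W : Type*} [NormedAddCommGroup V] [NormedSpace ℝ V]
    [NormedAddCommGroup W] [NormedSpace ℝ W] (F : V → W) (G : W → V) {K : ℝ}
    (hGF : ∀ a, G (F a) = a) (hG : ∀ a b, ‖G a - G b‖ ≤ K * ‖a - b‖)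
    (l : Filter ℝ) [l.NeBot] (hl : ∀ᶠ t in l, t ≠ 0) (p : V) (h : V) (A : W)
    (hA : Tendsto (fun t : ℝ => t⁻¹ • (F (p + t • h) - F p)) l (𝓝 A)) (B : V)
    (hB : Tendsto (fun t : ℝ => t⁻¹ • (G (F p + t • A) - p)) l (𝓝 B)) : B = h := by
  have key : Tendsto (fun t : ℝ => t⁻¹ • (G (F p + t • A) - p) - h) l (𝓝 0) := by
    apply squeeze_zero_norm' (a := fun t : ℝ => K * ‖A - t⁻¹ • (F (p + t • h) - F p)‖)
    · filter_upwards [hl] with t ht
      have h1 : t⁻¹ • (G (F p + t • A) - p) - h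
          = t⁻¹ • (G (F p + t • A) - G (F (p + t • h))) := by
        rw [hGF]
        have : G (F p + t • A) - (p + t • h) = (G (F p + t • A) - p) - t • h := by abel
        rw [this, smul_sub (t⁻¹) (G (F p + t • A) - p) (t • h), smul_smul, inv_mul_cancel₀ ht,
          one_smul]
      rw [h1, norm_smul, norm_inv]
      have h2 := hG (F p + t • A) (F (p + t • h))
      have h3 : F p + t • A - F (p + t • h) = t • (A - t⁻¹ • (F (p + t • h) - F p)) := by
        rw [smul_sub, smul_smul, mul_inv_cancel₀ ht, one_smul]; abel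
      rw [h3, norm_smul] at h2
      have ht' : 0 < ‖t‖ := norm_pos_iff.mpr ht
      calc ‖t‖⁻¹ * ‖G (F p + t • A) - G (F (p + t • h))‖
          ≤ ‖t‖⁻¹ * (K * (‖t‖ * ‖A - t⁻¹ • (F (p + t • h) - F p)‖)) := by gcongr
        _ = K * ‖A - t⁻¹ • (F (p + t • h) - F p)‖ := by field_simp
    · have : Tendsto (fun t : ℝ => K * ‖A - t⁻¹ • (F (p + t • h) - F p)‖) l
          (𝓝 (K * ‖A - A‖)) := (tendsto_const_nhds.sub hA).norm.const_mul K
      simpa using this
  have h2 : Tendsto (fun t : ℝ => t⁻¹ • (G (F p + t • A) - p) - h) l (𝓝 (B - h)) :=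
    hB.sub_const h
  exact sub_eq_zero.mp (tendsto_nhds_unique h2 key)

/-- **Simultaneous blow-ups of a bi-Lipschitz bijection and of its inverse.**
Let `f : X → Y` be a bijection of real normed spaces with `c‖x-x'‖ ≤ ‖f x - f x'‖ ≤ C‖x-x'‖`
(`c>0`), `x₀ ∈ X`, and `l` any nontrivial filter on `ℝ` with `t ≠ 0` eventually (for instance
`𝓝[>] 0`, giving one-sided directional derivatives, or `atTop`, giving derivatives at infinity, or
a sequence of scales). Suppose the limits
`T h = lim_l t⁻¹ (f (x₀ + t h) - f x₀)` and `S k = lim_l t⁻¹ (f⁻¹ (f x₀ + t k) - x₀)` exist for all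
`h`, `k`. Then `T` and `S` are mutually inverse bi-Lipschitz bijections (with the constants of `f`),
and if `T` alone is additive then `T` is a linear isomorphism of `X` onto `Y`. Neither `T` nor `S` is
assumed linear or continuous. -/
theorem result (f : X ≃ Y) {c C : ℝ} (hc : 0 < c)
    (hlow : ∀ x x', c * ‖x - x'‖ ≤ ‖f x - f x'‖) (hup : ∀ x x', ‖f x - f x'‖ ≤ C * ‖x - x'‖)
    (l : Filter ℝ) [l.NeBot] (hl : ∀ᶠ t in l, t ≠ 0) (x₀ : X)
    (T : X → Y) (hT : ∀ h, Tendsto (fun t : ℝ => t⁻¹ • (f (x₀ + t • h) - f x₀)) l (𝓝 (T h)))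
    (S : Y → X)
    (hS : ∀ k, Tendsto (fun t : ℝ => t⁻¹ • (f.symm (f x₀ + t • k) - x₀)) l (𝓝 (S k))) :
    (∀ h, S (T h) = h) ∧ (∀ k, T (S k) = k) ∧
      (∀ h h', c * ‖h - h'‖ ≤ ‖T h - T h'‖ ∧ ‖T h - T h'‖ ≤ C * ‖h - h'‖) ∧
      ((∀ a b, T (a + b) = T a + T b) → ∃ L : X ≃L[ℝ] Y, ∀ h, L h = T h) := by
  -- the inverse is Lipschitz
  have hsymm : ∀ a b : Y, ‖f.symm a - f.symm b‖ ≤ c⁻¹ * ‖a - b‖ := by
    intro a b
    have := hlow (f.symm a) (f.symm b)
    simp only [Equiv.apply_symm_apply] at this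
    rw [inv_mul_eq_div, le_div_iff₀ hc]; linarith
  have hST : ∀ h, S (T h) = h := fun h =>
    blowup_comp f f.symm (fun a => f.symm_apply_apply a) hsymm l hl x₀ h (T h) (hT h) (S (T h))
      (hS (T h))
  have hTS : ∀ k, T (S k) = k := by
    intro k
    -- apply the composition lemma to the inverse, based at `f x₀`
    have hA : Tendsto (fun t : ℝ => t⁻¹ • (f.symm (f x₀ + t • k) - f.symm (f x₀))) l (𝓝 (S k)) := by
      simpa using hS k
    have hB : Tendsto (fun t : ℝ => t⁻¹ • (f (f.symm (f x₀) + t • S k) - f x₀)) l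
        (𝓝 (T (S k))) := by
      simpa using hT (S k)
    exact blowup_comp f.symm f (fun a => f.apply_symm_apply a) hup l hl (f x₀) k (S k) hA (T (S k))
      hB
  have hlip : ∀ h h', c * ‖h - h'‖ ≤ ‖T h - T h'‖ ∧ ‖T h - T h'‖ ≤ C * ‖h - h'‖ := by
    intro h h'
    have hlim : Tendsto (fun t : ℝ => ‖t⁻¹ • (f (x₀ + t • h) - f x₀)
        - t⁻¹ • (f (x₀ + t • h') - f x₀)‖) l (𝓝 ‖T h - T h'‖) := ((hT h).sub (hT h')).norm
    constructor
    · refine ge_of_tendsto hlim ?_
      filter_upwards [hl] with t ht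
      have h1 : t⁻¹ • (f (x₀ + t • h) - f x₀) - t⁻¹ • (f (x₀ + t • h') - f x₀)
          = t⁻¹ • (f (x₀ + t • h) - f (x₀ + t • h')) := by
        rw [← smul_sub]; congr 1; abel
      rw [h1, norm_smul, norm_inv]
      have h2 := hlow (x₀ + t • h) (x₀ + t • h')
      have h3 : (x₀ + t • h) - (x₀ + t • h') = t • (h - h') := by
        rw [smul_sub]; abel
      rw [h3, norm_smul] at h2
      have ht' : 0 < ‖t‖ := norm_pos_iff.mpr ht
      calc c * ‖h - h'‖ = ‖t‖⁻¹ * (c * (‖t‖ * ‖h - h'‖)) := by field_simp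
        _ ≤ ‖t‖⁻¹ * ‖f (x₀ + t • h) - f (x₀ + t • h')‖ := by gcongr
    · refine le_of_tendsto hlim ?_
      filter_upwards [hl] with t ht
      exact quotient_sub_norm f hup x₀ (f x₀) h h' ht
  refine ⟨hST, hTS, hlip, ?_⟩
  intro hadd
  -- `T` is continuous, additive, hence real linear
  have hTcont : Continuous T := by
    have hC' : ∀ h h', ‖T h - T h'‖ ≤ |C| * ‖h - h'‖ := fun h h' =>
      (hlip h h').2.trans (mul_le_mul_of_nonneg_right (le_abs_self C) (norm_nonneg _))
    refine (LipschitzWith.of_dist_le_mul (K := ⟨|C|, abs_nonneg C⟩) ?_).continuous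
    intro a b
    rw [dist_eq_norm, dist_eq_norm]
    exact hC' a b
  have hScont : Continuous S := by
    have hlipS : ∀ a b : Y, ‖S a - S b‖ ≤ c⁻¹ * ‖a - b‖ := by
      intro a b
      have := (hlip (S a) (S b)).1
      rw [hTS, hTS] at this
      rw [inv_mul_eq_div, le_div_iff₀ hc]; linarith
    refine (LipschitzWith.of_dist_le_mul (K := ⟨c⁻¹, (inv_pos.mpr hc).le⟩) ?_).continuous
    intro a b
    rw [dist_eq_norm, dist_eq_norm]
    exact hlipS a b
  let A : X →+ Y := AddMonoidHom.mk' T hadd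
  have hAc : Continuous A := hTcont
  let Lin : X →L[ℝ] Y := ⟨A.toRealLinearMap hAc, hAc⟩
  have hLin : ∀ h, Lin h = T h := fun _ => rfl
  refine ⟨ContinuousLinearEquiv.equivOfInverse Lin
    { toFun := S
      map_add' := ?_
      map_smul' := ?_
      cont := hScont } ?_ ?_, ?_⟩
  · intro a b
    have : T (S a + S b) = T (S (a + b)) := by rw [hadd, hTS, hTS, hTS]
    have h2 := congrArg S this
    rw [hST, hST] at h2
    exact h2.symm
  · intro r a
    have : Lin (S (r • a)) = Lin (r • S a) := by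
      rw [map_smul, hLin, hLin, hTS, hTS]
    have h2 := congrArg S this
    simp only [hLin, hST] at h2
    simpa using h2
  · intro h; exact hST h
  · intro k; exact hTS k
  · intro h; rfl

end Vale.Agent.Results.P124.BlowUpInverse
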